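import Vale.Agent.P298.H967.Hoelder
import Vale.Agent.P298.StmtFlag

/-!
P298, row IRV-JAC (helper967): calculus of the integrability condition `InI f k h`.
-/

namespace Vale.Agent.P298.H967

open Filter Topology Metric MeasureTheory Set Vale.Agent.P298 Vale.Agent.P298.H379
open scoped ENNReal NNReal

/-- (AREA (i)) measurability of the root sums -/
def AreaI : Prop :=
  ∀ (Ω : Set (Fin 3 → ℂ)) (f : (Fin 3 → ℂ) → ℂ) (s : ℂ) (φ : (Fin 3 → ℂ) → ℝ≥0∞), IsOpen Ω →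
    DifferentiableOn ℂ f Ω → Measurable φ → (∀ x, x ∉ Ω → φ x = 0) → Measurable (rootSum f s φ)

/-- (AREA (ii)) area formula -/
def AreaII : Prop :=
  ∀ (Ω : Set (Fin 3 → ℂ)) (f a b : (Fin 3 → ℂ) → ℂ) (s : ℂ) (φ : (Fin 3 → ℂ) → ℝ≥0∞),
    IsOpen Ω → DifferentiableOn ℂ f Ω → DifferentiableOn ℂ a Ω → DifferentiableOn ℂ b Ω →
    Measurable φ → (∀ x, x ∉ Ω → φ x = 0) →
      nu f s (fun x => ‖jac3 f a b x‖ₑ ^ 2 * φ x) = ∫⁻ q : ℂ × ℂ,
        ∑' x : {x : Fin 3 → ℂ // x ∈ Ω ∧ f x = s ∧ a x = q.1 ∧ b x = q.2 ∧ pd 2 f x ≠ 0 ∧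
          jac3 f a b x ≠ 0}, φ x

/-! ### measurability -/

theorem measurable_ind {X : Type*} [TopologicalSpace X] [MeasurableSpace X] [BorelSpace X]
    {r : ℝ} {h : (Fin 3 → ℂ) → X}
    (hc : ContinuousOn h (ball 0 r)) {F : X → ℝ≥0∞} (hF : Measurable F) :
    Measurable ((ball (0 : Fin 3 → ℂ) r).indicator fun x => F (h x)) := by
  refine measurable_of_restrict_of_restrict_compl (s := ball 0 r) measurableSet_ball ?_ ?_
  · have : (ball (0 : Fin 3 → ℂ) r).domRestrict ((ball 0 r).indicator fun x => F (h x)) =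
        F ∘ (ball (0 : Fin 3 → ℂ) r).domRestrict h := by
      funext x
      simp
    rw [this]
    exact hF.comp (continuousOn_iff_continuous_domRestrict.1 hc).measurable
  · have : ((ball (0 : Fin 3 → ℂ) r)ᶜ).domRestrict ((ball 0 r).indicator fun x => F (h x)) =
        fun _ => 0 := by
      funext x
      have := x.2
      simp only [domRestrict_apply]
      exact indicator_of_notMem this _
    rw [this]
    exact measurable_const

theorem aemeas (hA : AreaI) {f : (Fin 3 → ℂ) → ℂ} {s : ℂ} {r : ℝ}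
    (hf : DifferentiableOn ℂ f (ball 0 r)) {X : Type*} [TopologicalSpace X] [MeasurableSpace X]
    [BorelSpace X] {h : (Fin 3 → ℂ) → X} (hc : ContinuousOn h (ball 0 r)) {F : X → ℝ≥0∞}
    (hF : Measurable F) :
    Measurable (rootSum f s ((ball (0 : Fin 3 → ℂ) r).indicator fun x => F (h x))) :=
  hA (ball 0 r) f s _ isOpen_ball hf (measurable_ind hc hF)
    fun _ hx => indicator_of_notMem hx _

/-! ### elementary properties of `InI` -/

theorem exists_ball {f : (Fin 3 → ℂ) → ℂ} (hf : Hol f) :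
    ∃ r > 0, ∀ x ∈ ball (0 : Fin 3 → ℂ) r, AnalyticAt ℂ f x := by
  obtain ⟨r, hr, h⟩ := Metric.eventually_nhds_iff_ball.1 hf.eventually_analyticAt
  exact ⟨r, hr, h⟩

theorem exists_ball_bdd {f : (Fin 3 → ℂ) → ℂ} (hf : Hol f) :
    ∃ r > 0, ∃ M : ℝ≥0, ∀ x ∈ ball (0 : Fin 3 → ℂ) r, ‖f x‖ₑ ≤ M := by
  have h1 : ∀ᶠ x in 𝓝 (0 : Fin 3 → ℂ), ‖f x‖ < ‖f 0‖ + 1 :=
    (hf.continuousAt.norm).eventually (gt_mem_nhds (lt_add_one _))
  obtain ⟨r, hr, h⟩ := Metric.eventually_nhds_iff_ball.1 h1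
  refine ⟨r, hr, ⟨‖f 0‖ + 1, by positivity⟩, fun x hx => ?_⟩
  rw [← ofReal_norm]
  refine (ENNReal.ofReal_le_ofReal (h x hx).le).trans_eq ?_
  rw [ENNReal.ofReal_eq_coe_nnreal (by positivity)]
  rfl

theorem Nloc_anti {f h : (Fin 3 → ℂ) → ℂ} {r r' k : ℝ} (hr : r' ≤ r) :
    Nloc f r' k h ≤ Nloc f r k h :=
  nu_mono fun _ _ _ => indicator_le_indicator_of_subset (ball_subset_ball hr)
    (fun _ => zero_le) _

theorem Nloc_le_of_le {f h g : (Fin 3 → ℂ) → ℂ} {r k m : ℝ} {C : ℝ≥0}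
    (H : ∀ x ∈ ball (0 : Fin 3 → ℂ) r, f x = 0 → ‖g x‖ₑ ^ (2 / m) ≤ C * ‖h x‖ₑ ^ (2 / k)) :
    Nloc f r m g ≤ C * Nloc f r k h := by
  unfold Nloc
  rw [← nu_const_mul_le]
  refine nu_mono fun x hx _ => ?_
  by_cases hxr : x ∈ ball (0 : Fin 3 → ℂ) r
  · rw [indicator_of_mem hxr, indicator_of_mem hxr]
    exact H x hxr hx
  · rw [indicator_of_notMem hxr, indicator_of_notMem hxr, mul_zero]

/-- comparison -/
theorem inI_of_le {f h g : (Fin 3 → ℂ) → ℂ} {k m : ℝ} (hh : InI f k h) (hg : Hol g) {C : ℝ≥0}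
    (H : ∀ᶠ x in 𝓝 (0 : Fin 3 → ℂ), f x = 0 → ‖g x‖ₑ ^ (2 / m) ≤ C * ‖h x‖ₑ ^ (2 / k)) :
    InI f m g := by
  obtain ⟨-, r, hr, hN⟩ := hh
  obtain ⟨r', hr', H'⟩ := Metric.eventually_nhds_iff_ball.1 H
  refine ⟨hg, min r r', lt_min hr hr', ?_⟩
  refine (Nloc_le_of_le (k := k) (h := h) (C := C) fun x hx => H' x
    (ball_subset_ball (min_le_right _ _) hx)).trans_lt ?_
  exact ENNReal.mul_lt_top ENNReal.coe_lt_top ((Nloc_anti (min_le_left _ _)).trans_lt hN)

theorem inI_congr {f h g : (Fin 3 → ℂ) → ℂ} {k : ℝ} (hh : InI f k h)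
    (H : h =ᶠ[𝓝 (0 : Fin 3 → ℂ)] g) : InI f k g := by
  refine inI_of_le hh (AnalyticAt.congr hh.1 H) (C := 1) ?_
  filter_upwards [H] with x hx _
  rw [hx, ENNReal.coe_one, one_mul]

theorem inI_mono {f h : (Fin 3 → ℂ) → ℂ} {k m : ℝ} (hh : InI f k h) (hm : 0 < m)
    (hmk : m ≤ k) : InI f m h := by
  obtain ⟨r, hr, M, hM⟩ := exists_ball_bdd hh.1
  have hexp : 0 ≤ 2 / m - 2 / k :=
    sub_nonneg.2 (div_le_div_of_nonneg_left (by norm_num) hm hmk)
  refine inI_of_le hh hh.1 (C := M ^ (2 / m - 2 / k)) ?_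
  filter_upwards [ball_mem_nhds _ hr] with x hx _
  have h1 : (2 / m : ℝ) = (2 / m - 2 / k) + 2 / k := by ring
  conv_lhs => rw [h1, ENNReal.rpow_add_of_nonneg _ _ hexp
    (div_nonneg (by norm_num) (hm.le.trans hmk))]
  gcongr
  rw [ENNReal.coe_rpow_of_nonneg _ hexp]
  exact ENNReal.rpow_le_rpow (hM x hx) hexp

theorem inI_mul_left {f h : (Fin 3 → ℂ) → ℂ} {k : ℝ} (hk : 0 < k) (hh : InI f k h)
    {c : (Fin 3 → ℂ) → ℂ} (hc : Hol c) : InI f k (fun x => c x * h x) := by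
  obtain ⟨r, hr, M, hM⟩ := exists_ball_bdd hc
  have hexp : (0 : ℝ) ≤ 2 / k := by positivity
  refine inI_of_le hh (AnalyticAt.mul hc hh.1) (C := M ^ (2 / k)) ?_
  filter_upwards [ball_mem_nhds _ hr] with x hx _
  rw [enorm_mul, ENNReal.mul_rpow_of_nonneg _ _ hexp, ENNReal.coe_rpow_of_nonneg _ hexp]
  gcongr
  exact hM x hx

theorem inI_of_eq_zero {f h : (Fin 3 → ℂ) → ℂ} {k : ℝ} (hk : 0 < k) (hh : Hol h)
    (H : ∀ᶠ x in 𝓝 (0 : Fin 3 → ℂ), f x = 0 → h x = 0) : InI f k h := by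
  obtain ⟨r, hr, H'⟩ := Metric.eventually_nhds_iff_ball.1 H
  refine ⟨hh, r, hr, ?_⟩
  have : Nloc f r k h = 0 := by
    unfold Nloc nu rootSum
    rw [← lintegral_zero (μ := (volume : Measure (ℂ × ℂ)))]
    refine lintegral_congr fun p => ?_
    rw [ENNReal.tsum_eq_zero]
    intro z
    by_cases hx : pt p z ∈ ball (0 : Fin 3 → ℂ) r
    · rw [indicator_of_mem hx, H' _ hx z.2.1]
      simp [hk]
    · rw [indicator_of_notMem hx, ENNReal.zero_div]
  rw [this]
  exact ENNReal.zero_lt_top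

theorem inI_add (hA : AreaI) {f h g : (Fin 3 → ℂ) → ℂ} {k : ℝ} (hk : 0 < k) (hf : Hol f)
    (hh : InI f k h) (hg : InI f k g) : InI f k (fun x => h x + g x) := by
  obtain ⟨r0, hr0, h0⟩ := exists_ball hf
  obtain ⟨r1, hr1, h1⟩ := exists_ball hh.1
  obtain ⟨hh1, ra, hra, hha⟩ := hh
  obtain ⟨hg1, rb, hrb, hgb⟩ := hg
  set r := min (min r0 r1) (min ra rb) with hr
  have hrpos : 0 < r := lt_min (lt_min hr0 hr1) (lt_min hra hrb)
  have e0 : r ≤ r0 := (min_le_left _ _).trans (min_le_left _ _)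
  have e1 : r ≤ r1 := (min_le_left _ _).trans (min_le_right _ _)
  have ea : r ≤ ra := (min_le_right _ _).trans (min_le_left _ _)
  have eb : r ≤ rb := (min_le_right _ _).trans (min_le_right _ _)
  have hexp : (0 : ℝ) ≤ 2 / k := by positivity
  refine ⟨AnalyticAt.add hh1 hg1, r, hrpos, ?_⟩
  have hm : Measurable (rootSum f 0 ((ball (0 : Fin 3 → ℂ) r).indicator
      fun x => ‖h x‖ₑ ^ (2 / k))) :=
    aemeas hA (fun x hx => (h0 x (ball_subset_ball e0 hx)).differentiableAt.differentiableWithinAt)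
      (h := h) (fun x hx => (h1 x (ball_subset_ball e1 hx)).continuousAt.continuousWithinAt)
      (F := fun z : ℂ => ‖z‖ₑ ^ (2 / k)) (by fun_prop)
  have key : Nloc f r k (fun x => h x + g x) ≤
      ((2 : ℝ≥0) ^ (2 / k) : ℝ≥0) * (Nloc f r k h + Nloc f r k g) := by
    unfold Nloc
    rw [← nu_add_le hm.aemeasurable, ← nu_const_mul_le]
    refine nu_mono fun x _ _ => ?_
    by_cases hxr : x ∈ ball (0 : Fin 3 → ℂ) r
    · simp only [indicator_of_mem hxr]
      have h2 : ‖h x + g x‖ₑ ≤ 2 * max ‖h x‖ₑ ‖g x‖ₑ := by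
        refine (enorm_add_le _ _).trans ?_
        rw [two_mul]
        exact add_le_add (le_max_left _ _) (le_max_right _ _)
      refine (ENNReal.rpow_le_rpow h2 hexp).trans ?_
      rw [ENNReal.mul_rpow_of_nonneg _ _ hexp, ENNReal.coe_rpow_of_nonneg _ hexp]
      refine mul_le_mul' le_rfl ?_
      rcases le_total ‖h x‖ₑ ‖g x‖ₑ with h3 | h3
      · rw [max_eq_right h3]
        exact le_add_self
      · rw [max_eq_left h3]
        exact le_self_add
    · simp only [indicator_of_notMem hxr]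
      simp
  refine key.trans_lt (ENNReal.mul_lt_top ENNReal.coe_lt_top ?_)
  exact ENNReal.add_lt_top.2 ⟨(Nloc_anti ea).trans_lt hha, (Nloc_anti eb).trans_lt hgb⟩

/-- Hoelder: `I_k · I_l ⊆ I_{k+l}`. -/
theorem inI_mul (hA : AreaI) {f a b : (Fin 3 → ℂ) → ℂ} {k l : ℝ} (hk : 0 < k) (hl : 0 < l)
    (hf : Hol f) (ha : InI f k a) (hb : InI f l b) : InI f (k + l) (fun x => a x * b x) := by
  obtain ⟨r0, hr0, h0⟩ := exists_ball hf
  obtain ⟨r1, hr1, h1⟩ := exists_ball ha.1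
  obtain ⟨r2, hr2, h2⟩ := exists_ball hb.1
  obtain ⟨ha1, ra, hra, hha⟩ := ha
  obtain ⟨hb1, rb, hrb, hhb⟩ := hb
  set r := min (min r0 (min r1 r2)) (min ra rb) with hr
  have hrpos : 0 < r := lt_min (lt_min hr0 (lt_min hr1 hr2)) (lt_min hra hrb)
  have e0 : r ≤ r0 := (min_le_left _ _).trans (min_le_left _ _)
  have e1 : r ≤ r1 := (min_le_left _ _).trans ((min_le_right _ _).trans (min_le_left _ _))
  have e2 : r ≤ r2 := (min_le_left _ _).trans ((min_le_right _ _).trans (min_le_right _ _))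
  have ea : r ≤ ra := (min_le_right _ _).trans (min_le_left _ _)
  have eb : r ≤ rb := (min_le_right _ _).trans (min_le_right _ _)
  refine ⟨AnalyticAt.mul ha1 hb1, r, hrpos, ?_⟩
  let φ : Fin 2 → (Fin 3 → ℂ) → ℝ≥0∞ := ![(ball (0 : Fin 3 → ℂ) r).indicator
    fun x => ‖a x‖ₑ ^ (2 / k), (ball (0 : Fin 3 → ℂ) r).indicator fun x => ‖b x‖ₑ ^ (2 / l)]
  let p : Fin 2 → ℝ := ![k / (k + l), l / (k + l)]
  have hkl : k + l ≠ 0 := by positivity
  have hp : ∑ i, p i = 1 := by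
    simp only [p, Fin.sum_univ_two, Matrix.cons_val_zero, Matrix.cons_val_one]
    field_simp
  have hp0 : ∀ i, 0 < p i := by
    intro i
    fin_cases i
    · simp only [p]; simp; positivity
    · simp only [p]; simp; positivity
  have hfd : DifferentiableOn ℂ f (ball 0 r) :=
    fun x hx => (h0 x (ball_subset_ball e0 hx)).differentiableAt.differentiableWithinAt
  have hm : ∀ i ∈ (Finset.univ : Finset (Fin 2)), AEMeasurable (rootSum f 0 (φ i)) := by
    intro i _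
    fin_cases i
    · exact (aemeas hA hfd (h := a)
        (fun x hx => (h1 x (ball_subset_ball e1 hx)).continuousAt.continuousWithinAt)
        (F := fun z : ℂ => ‖z‖ₑ ^ (2 / k)) (by fun_prop)).aemeasurable
    · exact (aemeas hA hfd (h := b)
        (fun x hx => (h2 x (ball_subset_ball e2 hx)).continuousAt.continuousWithinAt)
        (F := fun z : ℂ => ‖z‖ₑ ^ (2 / l)) (by fun_prop)).aemeasurable
  have key := nu_prod_le Finset.univ f 0 φ hp (fun i _ => (hp0 i).le) hm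
  have h3 : Nloc f r (k + l) (fun x => a x * b x) =
      nu f 0 (fun x => ∏ i, φ i x ^ p i) := by
    unfold Nloc
    refine nu_congr fun x _ _ => ?_
    rw [Fin.prod_univ_two]
    by_cases hxr : x ∈ ball (0 : Fin 3 → ℂ) r
    · simp only [φ, p, Matrix.cons_val_zero, Matrix.cons_val_one, indicator_of_mem hxr]
      rw [← ENNReal.rpow_mul, ← ENNReal.rpow_mul, enorm_mul,
        ENNReal.mul_rpow_of_nonneg _ _ (by positivity)]
      congr 2
      · field_simp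
      · field_simp
    · simp only [φ, p, Matrix.cons_val_zero, Matrix.cons_val_one, indicator_of_notMem hxr]
      rw [ENNReal.zero_rpow_of_pos (by positivity), zero_mul]
  rw [h3]
  refine key.trans_lt ?_
  rw [Fin.prod_univ_two]
  refine ENNReal.mul_lt_top ?_ ?_
  · exact ENNReal.rpow_lt_top_of_nonneg (hp0 0).le ((Nloc_anti ea).trans_lt hha).ne
  · exact ENNReal.rpow_lt_top_of_nonneg (hp0 1).le ((Nloc_anti eb).trans_lt hhb).ne

theorem inI_pow {f a : (Fin 3 → ℂ) → ℂ} {k : ℝ} (ha : InI f k a) {n : ℕ} (hn : n ≠ 0) :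
    InI f (n * k) (fun x => a x ^ n) := by
  refine inI_of_le ha (AnalyticAt.pow ha.1 n) (C := 1) (Eventually.of_forall fun x _ => ?_)
  rw [ENNReal.coe_one, one_mul, enorm_pow, ← ENNReal.rpow_natCast, ← ENNReal.rpow_mul]
  refine le_of_eq ?_
  congr 1
  have : (n : ℝ) ≠ 0 := by exact_mod_cast hn
  field_simp

end Vale.Agent.P298.H967
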