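import Vale.Agent.P298.H967.InI
import Vale.Agent.P298.Bdl.B1

/-!
P298, row IRV-JAC (helper967): the ideals `IK f k` of germs `h` with `|h|^(2/k)` integrable on
the surface germ `f = 0`.
-/

namespace Vale.Agent.P298.H967

open Filter Topology Metric MeasureTheory Set Vale.Agent.P298 Vale.Agent.P298.H379
open scoped ENNReal NNReal

/-- the ideal of germs `h` with `|h|^(2/k)` integrable on the surface germ `f = 0` -/
noncomputable def IK (f : (Fin 3 → ℂ) → ℂ) (k : ℝ) : Ideal (AnFun 3) :=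
  Ideal.span {h | InI f k (h : (Fin 3 → ℂ) → ℂ)}

/-- the same, with explicit carrier -/
noncomputable def IK' (hA : AreaI) {f : (Fin 3 → ℂ) → ℂ} (hf : Hol f) {k : ℝ} (hk : 0 < k) :
    Ideal (AnFun 3) where
  carrier := {h | InI f k (h : (Fin 3 → ℂ) → ℂ)}
  zero_mem' := inI_of_eq_zero hk (analyticAt_const (v := (0 : ℂ)))
    (Eventually.of_forall fun _ _ => rfl)
  add_mem' := fun ha hb => inI_add hA hk hf ha hb
  smul_mem' := fun c _ hx => inI_mul_left hk hx c.2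

theorem IK_eq (hA : AreaI) {f : (Fin 3 → ℂ) → ℂ} (hf : Hol f) {k : ℝ} (hk : 0 < k) :
    IK f k = IK' hA hf hk := by
  apply le_antisymm
  · exact Ideal.span_le.2 fun h hh => hh
  · exact fun h hh => Ideal.subset_span hh

theorem mem_IK (hA : AreaI) {f : (Fin 3 → ℂ) → ℂ} (hf : Hol f) {k : ℝ} (hk : 0 < k)
    {h : AnFun 3} : h ∈ IK f k ↔ InI f k (h : (Fin 3 → ℂ) → ℂ) := by
  rw [IK_eq hA hf hk]
  rfl

theorem inI_mem_IK {f : (Fin 3 → ℂ) → ℂ} {k : ℝ} {h : AnFun 3}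
    (hh : InI f k (h : (Fin 3 → ℂ) → ℂ)) : h ∈ IK f k :=
  Ideal.subset_span hh

theorem nul_le_IK {f : (Fin 3 → ℂ) → ℂ} {k : ℝ} (hk : 0 < k) : nul 3 ≤ IK f k := by
  intro h hh
  refine inI_mem_IK (inI_of_eq_zero hk h.2 ?_)
  rw [mem_nul] at hh
  filter_upwards [hh] with x hx _
  exact hx

theorem self_mem_IK {f : (Fin 3 → ℂ) → ℂ} (hf : Hol f) {k : ℝ} (hk : 0 < k) :
    (⟨f, hf⟩ : AnFun 3) ∈ IK f k :=
  inI_mem_IK (inI_of_eq_zero hk hf (Eventually.of_forall fun _ hx => hx))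

theorem locIdeal_le_IK {f : (Fin 3 → ℂ) → ℂ} (hf : Hol f) {k : ℝ} (hk : 0 < k) :
    locIdeal {f} ≤ IK f k := by
  unfold locIdeal
  rw [Ideal.span_le]
  rintro h (hh | hh)
  · exact nul_le_IK hk (mem_nul.2 hh)
  · have : h = ⟨f, hf⟩ := Subtype.ext hh
    rw [this]
    exact self_mem_IK hf hk

theorem IK_anti {f : (Fin 3 → ℂ) → ℂ} {k m : ℝ} (hm : 0 < m) (hmk : m ≤ k) :
    IK f k ≤ IK f m :=
  Ideal.span_mono fun _ hh => inI_mono hh hm hmk

theorem IK_mul_le (hA : AreaI) {f : (Fin 3 → ℂ) → ℂ} (hf : Hol f) {k l : ℝ} (hk : 0 < k)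
    (hl : 0 < l) : IK f k * IK f l ≤ IK f (k + l) := by
  rw [Ideal.mul_le]
  intro a ha b hb
  rw [mem_IK hA hf hk] at ha
  rw [mem_IK hA hf hl] at hb
  exact inI_mem_IK (inI_mul hA hk hl hf ha hb)

theorem IK_ne_top_iff (hA : AreaI) {f : (Fin 3 → ℂ) → ℂ} (hf : Hol f) {k : ℝ} (hk : 0 < k) :
    IK f k = ⊤ ↔ InI f k (fun _ => 1) := by
  rw [Ideal.eq_top_iff_one, mem_IK hA hf hk]
  rfl

end Vale.Agent.P298.H967
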