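import Vale.Agent.P298.H967.Jac

/-!
P298, row IRV-JAC (helper967): monomials `e^i J^j` in `e ∈ I_a^-` and `J = jac(f, e, e')`.
-/

namespace Vale.Agent.P298.H967

open Filter Topology Metric MeasureTheory Set Vale.Agent.P298 Vale.Agent.P298.H379
open scoped ENNReal NNReal

variable {f : (Fin 3 → ℂ) → ℂ}

/-- `e^i J^j ∈ I_{ik + jl}` -/
theorem inI_monomial (hI : AreaI) {e J : (Fin 3 → ℂ) → ℂ} {k l : ℝ} (hk : 0 < k) (hl : 0 < l)
    (hf : Hol f) (he : InI f k e) (hJ : InI f l J) {i j : ℕ} (hij : i ≠ 0 ∨ j ≠ 0) :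
    InI f (i * k + j * l) (fun x => e x ^ i * J x ^ j) := by
  rcases Nat.eq_zero_or_pos i with rfl | hi
  · have hj : j ≠ 0 := by simpa using hij
    simpa using inI_pow hJ hj
  · rcases Nat.eq_zero_or_pos j with rfl | hj
    · simpa using inI_pow he hi.ne'
    · exact inI_mul hI (by positivity) (by positivity) hf (inI_pow he hi.ne') (inI_pow hJ hj.ne')

/-- If `e, e' ∈ I_k` for all `k < a` and `(f, e, e')` is finite, then `e^i J^j ∈ I_N` for
`0 < N < i a + j (2 a + 1)`, `J = jac(f, e, e')`. -/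
theorem inI_monomial_jac (hI : AreaI) (hII : AreaII) {e e' : (Fin 3 → ℂ) → ℂ} {a : ℝ}
    (ha : 0 < a) (hf : Hol f) (he : ∀ k, 0 < k → k < a → InI f k e)
    (he' : ∀ k, 0 < k → k < a → InI f k e')
    (hfin : ∃ r > 0, ∃ C : ℕ, ∀ q : ℂ × ℂ, {x | x ∈ ball (0 : Fin 3 → ℂ) r ∧ f x = 0 ∧
      e x = q.1 ∧ e' x = q.2}.encard ≤ C) {i j : ℕ} {N : ℝ} (hN0 : 0 < N)
    (hN : N < i * a + j * (2 * a + 1)) :
    InI f N (fun x => e x ^ i * (jac3 f e e' x) ^ j) := by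
  have hij : i ≠ 0 ∨ j ≠ 0 := by
    by_contra hcon
    push Not at hcon
    rw [hcon.1, hcon.2] at hN
    simp only [Nat.cast_zero, zero_mul, add_zero] at hN
    linarith
  -- choose `k < a`
  have h1 : ∀ᶠ k in 𝓝[<] a, N < i * k + j * (2 * k + 1) := by
    have hc : ContinuousAt (fun k : ℝ => (i : ℝ) * k + j * (2 * k + 1)) a := by fun_prop
    exact (hc.eventually (lt_mem_nhds hN)).filter_mono nhdsWithin_le_nhds
  have h2 : ∀ᶠ k in 𝓝[<] a, 0 < k := (lt_mem_nhds ha).filter_mono nhdsWithin_le_nhds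
  obtain ⟨k, ⟨hk1, hk0⟩, hka⟩ := ((h1.and h2).and self_mem_nhdsWithin).exists
  -- choose `l < 2 k + 1`
  have h3 : ∀ᶠ l in 𝓝[<] (2 * k + 1), N < i * k + j * l := by
    have hc : ContinuousAt (fun l : ℝ => (i : ℝ) * k + j * l) (2 * k + 1) := by fun_prop
    exact (hc.eventually (lt_mem_nhds hk1)).filter_mono nhdsWithin_le_nhds
  have h4 : ∀ᶠ l in 𝓝[<] (2 * k + 1), (0 : ℝ) < l :=
    (lt_mem_nhds (by linarith)).filter_mono nhdsWithin_le_nhds
  obtain ⟨l, ⟨hl1, hl0⟩, hlk⟩ := ((h3.and h4).and self_mem_nhdsWithin).exists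
  have hJ : InI f l (jac3 f e e') :=
    inI_jac hI hII hk0 hk0 hl0 (lt_of_lt_of_eq hlk (by ring)) hf (he k hk0 hka) (he' k hk0 hka) hfin
  exact inI_mono (inI_monomial hI hk0 hl0 hf (he k hk0 hka) hJ hij) hN0 hl1.le

end Vale.Agent.P298.H967
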