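import Vale.Agent.P298.H967.InI
import Mathlib.MeasureTheory.Constructions.HaarToSphere

/-!
P298, row IRV-JAC (helper967): `a ∈ I_k`, `b ∈ I_l`, `(f, a, b)` finite, `m < k + l + 1` imply
`jac(f, a, b) ∈ I_m`.
-/

namespace Vale.Agent.P298.H967

open Filter Topology Metric MeasureTheory Set Vale.Agent.P298 Vale.Agent.P298.H379
open scoped ENNReal NNReal

theorem hol_pd3 {u : (Fin 3 → ℂ) → ℂ} (hu : Hol u) (i : Fin 3) : Hol (pd i u) := by
  have h1 : AnalyticAt ℂ (fderiv ℂ u) 0 := AnalyticAt.fderiv hu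
  have h2 : pd i u = fun x => (ContinuousLinearMap.apply ℂ ℂ (Pi.single i 1 : Fin 3 → ℂ))
      (fderiv ℂ u x) := by
    funext x
    rfl
  unfold Hol
  rw [h2]
  exact (ContinuousLinearMap.analyticAt _ _).comp h1

theorem hol_jac3' {u v w : (Fin 3 → ℂ) → ℂ} (hu : Hol u) (hv : Hol v) (hw : Hol w) :
    Hol (jac3 u v w) := by
  have : jac3 u v w = fun x =>
      pd 0 u x * pd 1 v x * pd 2 w x - pd 0 u x * pd 2 v x * pd 1 w x -
      pd 1 u x * pd 0 v x * pd 2 w x + pd 1 u x * pd 2 v x * pd 0 w x +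
      pd 2 u x * pd 0 v x * pd 1 w x - pd 2 u x * pd 1 v x * pd 0 w x := by
    funext x
    simp only [jac3, Matrix.det_fin_three, Matrix.of_apply]
    simp
  unfold Hol
  rw [this]
  have a0 := hol_pd3 hu; have a1 := hol_pd3 hv; have a2 := hol_pd3 hw
  unfold Hol at a0 a1 a2
  exact (((((((a0 0).mul (a1 1)).mul (a2 2)).sub (((a0 0).mul (a1 2)).mul (a2 1))).sub
      (((a0 1).mul (a1 0)).mul (a2 2))).add (((a0 1).mul (a1 2)).mul (a2 0))).add
      (((a0 2).mul (a1 0)).mul (a2 1))).sub (((a0 2).mul (a1 1)).mul (a2 0))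

/-- local integrability of `|z|^(-2θ)`, `θ < 1`, on the plane -/
theorem lintegral_rpow_lt_top {θ : ℝ} (hθ : θ < 1) (M : ℝ) :
    ∫⁻ z in ball (0 : ℂ) M, ‖z‖ₑ ^ (-2 * θ) < ∞ := by
  have h1 : IntegrableOn (fun z : ℂ => ‖z‖ ^ (-2 * θ)) (ball (0 : ℂ) M) := by
    refine (integrableOn_fun_norm_addHaar (E := ℂ) (volume : Measure ℂ)
      (f := fun y : ℝ => y ^ (-2 * θ)) (r := M)).2 ?_
    rw [Complex.finrank_real_complex]
    have h2 : EqOn (fun y : ℝ => y ^ (2 - 1) • y ^ (-2 * θ)) (fun y => y ^ (1 + -2 * θ))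
        (Ioo 0 M) := by
      intro y hy
      have hy0 : 0 < y := hy.1
      simp only [smul_eq_mul]
      rw [Real.rpow_add hy0]
      simp
    rw [integrableOn_congr_fun h2 measurableSet_Ioo]
    rcases le_or_gt M 0 with hM | hM
    · rw [Ioo_eq_empty (by simpa using hM)]
      exact integrableOn_empty
    · rw [intervalIntegral.integrableOn_Ioo_rpow_iff hM]
      linarith
  have h3 := h1.lintegral_lt_top
  refine lt_of_eq_of_lt ?_ h3
  refine lintegral_congr_ae ?_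
  have h0 : ∀ᵐ z : ℂ ∂(volume.restrict (ball (0 : ℂ) M)), z ≠ 0 := by
    refine ae_restrict_of_ae ?_
    have : (volume : Measure ℂ) {0} = 0 := measure_singleton 0
    exact compl_mem_ae_iff.2 this
  filter_upwards [h0] with z hz
  rw [← ofReal_norm, ENNReal.ofReal_rpow_of_pos (norm_pos_iff.2 hz)]

/-- the weight -/
noncomputable def wt (θ M : ℝ) (z : ℂ) : ℝ≥0∞ :=
  (ball (0 : ℂ) M).indicator (fun z => ‖z‖ₑ ^ (-2 * θ)) z

theorem measurable_wt (θ M : ℝ) : Measurable (wt θ M) := by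
  unfold wt
  exact Measurable.indicator (by fun_prop) measurableSet_ball

theorem lintegral_wt {θ : ℝ} (hθ : θ < 1) (M : ℝ) : ∫⁻ z, wt θ M z < ∞ := by
  unfold wt
  rw [lintegral_indicator measurableSet_ball]
  exact lintegral_rpow_lt_top hθ M

theorem lintegral_wt_prod {θ : ℝ} (hθ : θ < 1) (M : ℝ) :
    ∫⁻ q : ℂ × ℂ, wt θ M q.1 * wt θ M q.2 < ∞ := by
  rw [Measure.volume_eq_prod, lintegral_prod_mul (measurable_wt θ M).aemeasurable
    (measurable_wt θ M).aemeasurable]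
  exact ENNReal.mul_lt_top (lintegral_wt hθ M) (lintegral_wt hθ M)

theorem ae_ne_zero : ∀ᵐ q : ℂ × ℂ, q.1 ≠ 0 ∧ q.2 ≠ 0 := by
  have h1 : (volume : Measure ℂ) {0} = 0 := measure_singleton 0
  have h2 : (volume : Measure (ℂ × ℂ)) (({0} : Set ℂ) ×ˢ (univ : Set ℂ)) = 0 := by
    rw [Measure.volume_eq_prod, Measure.prod_prod, h1, zero_mul]
  have h3 : (volume : Measure (ℂ × ℂ)) ((univ : Set ℂ) ×ˢ ({0} : Set ℂ)) = 0 := by
    rw [Measure.volume_eq_prod, Measure.prod_prod, h1, mul_zero]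
  filter_upwards [compl_mem_ae_iff.2 h2, compl_mem_ae_iff.2 h3] with q hq1 hq2
  constructor
  · intro h
    exact hq1 ⟨h, mem_univ _⟩
  · intro h
    exact hq2 ⟨mem_univ _, h⟩

/-- fibre sums over finite fibres -/
theorem tsum_le_of_encard {α : Type*} {S : Set α} {C : ℕ} (hC : S.encard ≤ C) {p : α → Prop}
    (hp : ∀ x, p x → x ∈ S) {φ : α → ℝ≥0∞} {w : ℝ≥0∞} (hφ : ∀ x, p x → φ x ≤ w) :
    ∑' x : {x // p x}, φ x ≤ C * w := by
  have hfin : {x | p x}.Finite :=
    (Set.finite_of_encard_le_coe hC).subset fun x hx => hp x hx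
  have hcard : {x | p x}.encard ≤ C := (encard_le_encard fun x hx => hp x hx).trans hC
  have : Fintype {x // p x} := hfin.fintype
  rw [tsum_fintype]
  refine (Finset.sum_le_card_nsmul Finset.univ _ w fun x _ => hφ x.1 x.2).trans ?_
  rw [nsmul_eq_mul]
  gcongr
  have h1 : ((Finset.univ : Finset {x // p x}).card : ℕ∞) ≤ C := by
    rw [Finset.card_univ, ← ENat.card_eq_coe_fintype_card]
    exact hcard
  exact_mod_cast h1

section main

variable {f a b : (Fin 3 → ℂ) → ℂ}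

/-- the weighted integral of `|J|²` is finite -/
theorem nu_jac_lt_top (hII : AreaII) {r : ℝ} (hf : DifferentiableOn ℂ f (ball 0 r))
    (ha : DifferentiableOn ℂ a (ball 0 r)) (hb : DifferentiableOn ℂ b (ball 0 r)) (M : ℝ)
    {C : ℕ} (hC : ∀ q : ℂ × ℂ, {x | x ∈ ball (0 : Fin 3 → ℂ) r ∧ f x = 0 ∧ a x = q.1 ∧
      b x = q.2}.encard ≤ C) {θ : ℝ} (hθ : θ < 1) :
    nu f 0 (fun x => ‖jac3 f a b x‖ₑ ^ 2 * (ball (0 : Fin 3 → ℂ) r).indicator
      (fun x => wt θ M (a x) * wt θ M (b x)) x) < ∞ := by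
  have hm : Measurable ((ball (0 : Fin 3 → ℂ) r).indicator
      (fun x => wt θ M (a x) * wt θ M (b x))) :=
    measurable_ind (h := fun x => (a x, b x)) (ha.continuousOn.prodMk hb.continuousOn)
      (F := fun z : ℂ × ℂ => wt θ M z.1 * wt θ M z.2)
      (((measurable_wt θ M).comp measurable_fst).mul ((measurable_wt θ M).comp measurable_snd))
  rw [hII (ball 0 r) f a b 0 _ isOpen_ball hf ha hb hm fun x hx => indicator_of_notMem hx _]
  refine lt_of_le_of_lt (lintegral_mono fun q => tsum_le_of_encard (hC q) (w := wt θ M q.1 *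
    wt θ M q.2) (fun x hx => ⟨hx.1, hx.2.1, hx.2.2.1, hx.2.2.2.1⟩) (fun x hx => ?_)) ?_
  · rw [indicator_of_mem hx.1, hx.2.2.1, hx.2.2.2.1]
  · rw [lintegral_const_mul' _ _ (ENNReal.natCast_ne_top C)]
    exact ENNReal.mul_lt_top (ENNReal.natCast_lt_top C) (lintegral_wt_prod hθ M)

/-- the curves `a = 0`, `b = 0` are negligible where `J ≠ 0` -/
theorem nu_jac_zero (hII : AreaII) {r : ℝ} (hf : DifferentiableOn ℂ f (ball 0 r))
    (ha : DifferentiableOn ℂ a (ball 0 r)) (hb : DifferentiableOn ℂ b (ball 0 r)) :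
    nu f 0 (fun x => ‖jac3 f a b x‖ₑ ^ 2 * (ball (0 : Fin 3 → ℂ) r).indicator
      (fun x => ({z : ℂ × ℂ | z.1 = 0 ∨ z.2 = 0}).indicator 1 (a x, b x)) x) = 0 := by
  have hm : Measurable ((ball (0 : Fin 3 → ℂ) r).indicator
      (fun x => ({z : ℂ × ℂ | z.1 = 0 ∨ z.2 = 0}).indicator (1 : ℂ × ℂ → ℝ≥0∞) (a x, b x))) := by
    refine measurable_ind (h := fun x => (a x, b x)) (ha.continuousOn.prodMk hb.continuousOn)
      (F := ({z : ℂ × ℂ | z.1 = 0 ∨ z.2 = 0}).indicator 1) (measurable_one.indicator ?_)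
    exact (measurableSet_eq_fun measurable_fst measurable_const).union
      (measurableSet_eq_fun measurable_snd measurable_const)
  rw [hII (ball 0 r) f a b 0 _ isOpen_ball hf ha hb hm fun x hx => indicator_of_notMem hx _]
  rw [← lintegral_zero (μ := (volume : Measure (ℂ × ℂ)))]
  refine lintegral_congr_ae ?_
  filter_upwards [ae_ne_zero] with q hq
  rw [ENNReal.tsum_eq_zero]
  intro x
  rw [indicator_of_mem x.2.1, indicator_of_notMem]
  rw [x.2.2.2.1, x.2.2.2.2.1]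
  rintro (h | h)
  · exact hq.1 h
  · exact hq.2 h

theorem rpow_identity {J A B : ℝ≥0∞} (hA : A ≠ 0) (hA' : A ≠ ∞) (hB : B ≠ 0) (hB' : B ≠ ∞)
    {k l m θ : ℝ} (hk : 0 < k) (hl : 0 < l) (hm : 0 < m) :
    J ^ (2 / m) = (J ^ 2 * (A ^ (-2 * θ) * B ^ (-2 * θ))) ^ (1 / m) *
      (A ^ (2 / k)) ^ (k * θ / m) * (B ^ (2 / l)) ^ (l * θ / m) := by
  have e1 : (2 / k) * (k * θ / m) = 2 * θ / m := by field_simp
  have e2 : (2 / l) * (l * θ / m) = 2 * θ / m := by field_simp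
  have e3 : -2 * θ * (1 / m) = -(2 * θ / m) := by ring
  have h0 : (0 : ℝ) ≤ 1 / m := by positivity
  rw [ENNReal.mul_rpow_of_nonneg _ _ h0, ENNReal.mul_rpow_of_nonneg _ _ h0,
    ← ENNReal.rpow_mul, ← ENNReal.rpow_mul, ← ENNReal.rpow_mul, ← ENNReal.rpow_mul, e1, e2, e3,
    ← ENNReal.rpow_natCast, ← ENNReal.rpow_mul]
  have e4 : ((2 : ℕ) : ℝ) * (1 / m) = 2 / m := by push_cast; ring
  have e5 : A ^ (-(2 * θ / m)) * A ^ (2 * θ / m) = 1 := by
    rw [← ENNReal.rpow_add _ _ hA hA', neg_add_cancel, ENNReal.rpow_zero]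
  have e6 : B ^ (-(2 * θ / m)) * B ^ (2 * θ / m) = 1 := by
    rw [← ENNReal.rpow_add _ _ hB hB', neg_add_cancel, ENNReal.rpow_zero]
  rw [e4]
  calc J ^ (2 / m) = J ^ (2 / m) * (A ^ (-(2 * θ / m)) * A ^ (2 * θ / m)) *
      (B ^ (-(2 * θ / m)) * B ^ (2 * θ / m)) := by rw [e5, e6, mul_one, mul_one]
    _ = _ := by ring

/-- the case `1 ≤ m` -/
theorem inI_jac_aux (hI : AreaI) (hII : AreaII) {k l m : ℝ} (hk : 0 < k) (hl : 0 < l)
    (hm1 : 1 ≤ m) (hm : m < k + l + 1) (hf : Hol f) (ha : InI f k a) (hb : InI f l b)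
    (hfin : ∃ r > 0, ∃ C : ℕ, ∀ q : ℂ × ℂ, {x | x ∈ ball (0 : Fin 3 → ℂ) r ∧ f x = 0 ∧
      a x = q.1 ∧ b x = q.2}.encard ≤ C) : InI f m (jac3 f a b) := by
  have hJ : Hol (jac3 f a b) := hol_jac3' hf ha.1 hb.1
  obtain ⟨r0, hr0, h0⟩ := exists_ball hf
  obtain ⟨r1, hr1, h1⟩ := exists_ball ha.1
  obtain ⟨r2, hr2, h2⟩ := exists_ball hb.1
  obtain ⟨r3, hr3, h3⟩ := exists_ball hJ
  obtain ⟨r4, hr4, Ma, hMa⟩ := exists_ball_bdd ha.1
  obtain ⟨r5, hr5, Mb, hMb⟩ := exists_ball_bdd hb.1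
  obtain ⟨r6, hr6, C, hC⟩ := hfin
  obtain ⟨ha1, ra, hra, hha⟩ := ha
  obtain ⟨hb1, rb, hrb, hhb⟩ := hb
  obtain ⟨r, hrpos, e0, e1, e2, e3, e4, e5, e6, ea, eb⟩ : ∃ r > 0, r ≤ r0 ∧ r ≤ r1 ∧ r ≤ r2 ∧
      r ≤ r3 ∧ r ≤ r4 ∧ r ≤ r5 ∧ r ≤ r6 ∧ r ≤ ra ∧ r ≤ rb := by
    refine ⟨min r0 (min r1 (min r2 (min r3 (min r4 (min r5 (min r6 (min ra rb))))))), ?_, ?_⟩
    · simp only [gt_iff_lt, lt_min_iff]
      exact ⟨hr0, hr1, hr2, hr3, hr4, hr5, hr6, hra, hrb⟩
    · simp only [← le_min_iff]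
      simp
  refine ⟨hJ, r, hrpos, ?_⟩
  have hfd : DifferentiableOn ℂ f (ball 0 r) :=
    fun x hx => (h0 x (ball_subset_ball e0 hx)).differentiableAt.differentiableWithinAt
  have had : DifferentiableOn ℂ a (ball 0 r) :=
    fun x hx => (h1 x (ball_subset_ball e1 hx)).differentiableAt.differentiableWithinAt
  have hbd : DifferentiableOn ℂ b (ball 0 r) :=
    fun x hx => (h2 x (ball_subset_ball e2 hx)).differentiableAt.differentiableWithinAt
  have hJc : ContinuousOn (jac3 f a b) (ball 0 r) :=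
    fun x hx => (h3 x (ball_subset_ball e3 hx)).continuousAt.continuousWithinAt
  set M : ℝ := max (Ma : ℝ) (Mb : ℝ) + 1 with hMdef
  have haM : ∀ x ∈ ball (0 : Fin 3 → ℂ) r, ‖a x‖ < M := by
    intro x hx
    have := hMa x (ball_subset_ball e4 hx)
    rw [enorm_le_coe] at this
    have h7 : ‖a x‖ ≤ Ma := this
    have : (Ma : ℝ) ≤ max (Ma : ℝ) Mb := le_max_left _ _
    linarith
  have hbM : ∀ x ∈ ball (0 : Fin 3 → ℂ) r, ‖b x‖ < M := by
    intro x hx
    have := hMb x (ball_subset_ball e5 hx)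
    rw [enorm_le_coe] at this
    have h7 : ‖b x‖ ≤ Mb := this
    have : (Mb : ℝ) ≤ max (Ma : ℝ) Mb := le_max_right _ _
    linarith
  have hC' : ∀ q : ℂ × ℂ, {x | x ∈ ball (0 : Fin 3 → ℂ) r ∧ f x = 0 ∧ a x = q.1 ∧
      b x = q.2}.encard ≤ C := fun q =>
    (encard_le_encard (t := {x | x ∈ ball (0 : Fin 3 → ℂ) r6 ∧ f x = 0 ∧ a x = q.1 ∧
      b x = q.2}) fun _ hx => ⟨ball_subset_ball e6 hx.1, hx.2⟩).trans (hC q)
  set θ : ℝ := (m - 1) / (k + l) with hθdef
  have hkl : 0 < k + l := by positivity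
  have hθ1 : θ < 1 := by
    rw [hθdef, div_lt_one hkl]
    linarith
  have hθ0 : 0 ≤ θ := div_nonneg (by linarith) hkl.le
  have hm0 : 0 < m := by linarith
  -- the three factors
  let G : ℂ × ℂ × ℂ → ℝ≥0∞ := fun z => ‖z.1‖ₑ ^ 2 * (wt θ M z.2.1 * wt θ M z.2.2)
  have hG : Measurable G := by
    have h7 := measurable_wt θ M
    have h8 : Measurable fun z : ℂ × ℂ × ℂ => wt θ M z.2.1 :=
      h7.comp (measurable_fst.comp measurable_snd)
    have h9 : Measurable fun z : ℂ × ℂ × ℂ => wt θ M z.2.2 :=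
      h7.comp (measurable_snd.comp measurable_snd)
    exact ((measurable_fst.enorm).pow_const 2).mul (h8.mul h9)
  let φ : Fin 3 → (Fin 3 → ℂ) → ℝ≥0∞ := ![
    (ball (0 : Fin 3 → ℂ) r).indicator fun x => G (jac3 f a b x, a x, b x),
    (ball (0 : Fin 3 → ℂ) r).indicator fun x => ‖a x‖ₑ ^ (2 / k),
    (ball (0 : Fin 3 → ℂ) r).indicator fun x => ‖b x‖ₑ ^ (2 / l)]
  let p : Fin 3 → ℝ := ![1 / m, k * θ / m, l * θ / m]
  have hp : ∑ i, p i = 1 := by
    rw [Fin.sum_univ_three]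
    change 1 / m + k * θ / m + l * θ / m = 1
    rw [hθdef]
    field_simp
    ring
  have hp0 : ∀ i, 0 ≤ p i := by
    intro i
    fin_cases i
    · change 0 ≤ 1 / m
      positivity
    · change 0 ≤ k * θ / m
      positivity
    · change 0 ≤ l * θ / m
      positivity
  have hmeas : ∀ i ∈ (Finset.univ : Finset (Fin 3)), AEMeasurable (rootSum f 0 (φ i)) := by
    intro i _
    fin_cases i
    · exact (aemeas hI hfd (h := fun x => (jac3 f a b x, a x, b x))
        (hJc.prodMk (had.continuousOn.prodMk hbd.continuousOn)) (F := G) hG).aemeasurable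
    · exact (aemeas hI hfd (h := a) had.continuousOn
        (F := fun z : ℂ => ‖z‖ₑ ^ (2 / k)) (by fun_prop)).aemeasurable
    · exact (aemeas hI hfd (h := b) hbd.continuousOn
        (F := fun z : ℂ => ‖z‖ₑ ^ (2 / l)) (by fun_prop)).aemeasurable
  have key := nu_prod_le Finset.univ f 0 φ hp (fun i _ => hp0 i) hmeas
  have key2 : nu f 0 (fun x => ∏ i, φ i x ^ p i) < ∞ := by
    refine key.trans_lt ?_
    rw [Fin.prod_univ_three]
    refine ENNReal.mul_lt_top (ENNReal.mul_lt_top ?_ ?_) ?_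
    · refine ENNReal.rpow_lt_top_of_nonneg (hp0 0) (ne_of_lt ?_)
      refine lt_of_le_of_lt (nu_mono fun x _ _ => ?_)
        (nu_jac_lt_top hII hfd had hbd M hC' hθ1)
      change (ball (0 : Fin 3 → ℂ) r).indicator (fun x => G (jac3 f a b x, a x, b x)) x ≤ _
      by_cases hx : x ∈ ball (0 : Fin 3 → ℂ) r
      · rw [indicator_of_mem hx, indicator_of_mem hx]
      · rw [indicator_of_notMem hx]
        exact zero_le
    · exact ENNReal.rpow_lt_top_of_nonneg (hp0 1) ((Nloc_anti ea).trans_lt hha).ne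
    · exact ENNReal.rpow_lt_top_of_nonneg (hp0 2) ((Nloc_anti eb).trans_lt hhb).ne
  -- the negligible part
  let ψ : (Fin 3 → ℂ) → ℝ≥0∞ := fun x => (ball (0 : Fin 3 → ℂ) r).indicator (fun x =>
    ({z : ℂ × ℂ | z.1 = 0 ∨ z.2 = 0}).indicator (1 : ℂ × ℂ → ℝ≥0∞) (a x, b x) *
      ‖jac3 f a b x‖ₑ ^ (2 / m)) x
  have hψ : rootSum f 0 ψ =ᵐ[volume] 0 := by
    have h8 : rootSum f 0 (fun x => ‖jac3 f a b x‖ₑ ^ 2 * (ball (0 : Fin 3 → ℂ) r).indicator
      (fun x => ({z : ℂ × ℂ | z.1 = 0 ∨ z.2 = 0}).indicator 1 (a x, b x)) x) =ᵐ[volume] 0 := by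
      have h9 := nu_jac_zero hII hfd had hbd
      unfold nu at h9
      rw [lintegral_eq_zero_iff'] at h9
      · exact h9
      · have hS : MeasurableSet {z : ℂ × ℂ × ℂ | z.2.1 = 0 ∨ z.2.2 = 0} :=
          (measurableSet_eq_fun (measurable_fst.comp measurable_snd) measurable_const).union
            (measurableSet_eq_fun (measurable_snd.comp measurable_snd) measurable_const)
        have h10 : Measurable fun z : ℂ × ℂ × ℂ => ‖z.1‖ₑ ^ 2 *
            ({z : ℂ × ℂ × ℂ | z.2.1 = 0 ∨ z.2.2 = 0}).indicator (1 : ℂ × ℂ × ℂ → ℝ≥0∞) z :=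
          ((measurable_fst.enorm).pow_const 2).mul (measurable_one.indicator hS)
        have h11 := (aemeas hI hfd (s := 0) (h := fun x => (jac3 f a b x, a x, b x))
          (hJc.prodMk (had.continuousOn.prodMk hbd.continuousOn)) h10).aemeasurable
          (μ := (volume : Measure (ℂ × ℂ)))
        refine h11.congr (Eventually.of_forall fun y => rootSum_congr fun x _ _ => ?_)
        by_cases hx : x ∈ ball (0 : Fin 3 → ℂ) r
        · rw [indicator_of_mem hx, indicator_of_mem hx]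
          congr 1
        · rw [indicator_of_notMem hx, indicator_of_notMem hx, mul_zero]
    filter_upwards [h8] with y hy
    simp only [Pi.zero_apply, rootSum, ENNReal.tsum_eq_zero] at hy ⊢
    intro z
    have h12 := hy z
    rw [ENNReal.div_eq_zero_iff] at h12 ⊢
    rcases h12 with h12 | h12
    · left
      by_cases hx : pt y z ∈ ball (0 : Fin 3 → ℂ) r
      · rw [indicator_of_mem hx] at h12
        simp only [ψ]
        rw [indicator_of_mem hx]
        rcases mul_eq_zero.1 h12 with h13 | h13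
        · have : ‖jac3 f a b (pt y z)‖ₑ = 0 := by simpa using h13
          rw [this, ENNReal.zero_rpow_of_pos (by positivity), mul_zero]
        · rw [h13, zero_mul]
      · simp only [ψ]
        rw [indicator_of_notMem hx]
    · exact Or.inr h12
  have hψ0 : nu f 0 ψ = 0 := by
    unfold nu
    rw [lintegral_congr_ae hψ]
    simp
  -- conclusion
  have hfinal : Nloc f r m (jac3 f a b) ≤ nu f 0 (fun x => ψ x + ∏ i, φ i x ^ p i) := by
    unfold Nloc
    refine nu_mono fun x _ _ => ?_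
    by_cases hx : x ∈ ball (0 : Fin 3 → ℂ) r
    · rw [indicator_of_mem hx]
      by_cases hab : a x = 0 ∨ b x = 0
      · refine le_trans ?_ le_self_add
        simp only [ψ]
        rw [indicator_of_mem hx, indicator_of_mem (show (a x, b x) ∈ {z : ℂ × ℂ | z.1 = 0 ∨
          z.2 = 0} from hab), Pi.one_apply, one_mul]
      · refine le_trans ?_ le_add_self
        push Not at hab
        rw [Fin.prod_univ_three]
        change _ ≤ ((ball (0 : Fin 3 → ℂ) r).indicator (fun x => G (jac3 f a b x, a x, b x)) x) ^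
          (1 / m) * ((ball (0 : Fin 3 → ℂ) r).indicator (fun x => ‖a x‖ₑ ^ (2 / k)) x) ^
          (k * θ / m) * ((ball (0 : Fin 3 → ℂ) r).indicator (fun x => ‖b x‖ₑ ^ (2 / l)) x) ^
          (l * θ / m)
        simp only [indicator_of_mem hx, G, wt]
        rw [indicator_of_mem (show a x ∈ ball (0 : ℂ) M by simpa using haM x hx),
          indicator_of_mem (show b x ∈ ball (0 : ℂ) M by simpa using hbM x hx)]
        exact (rpow_identity (by simpa using hab.1) enorm_ne_top (by simpa using hab.2)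
          enorm_ne_top hk hl hm0).le
    · rw [indicator_of_notMem hx]
      exact zero_le
  refine hfinal.trans_lt ?_
  have hsum : nu f 0 (fun x => ψ x + ∏ i, φ i x ^ p i) = nu f 0 ψ + nu f 0 (fun x =>
      ∏ i, φ i x ^ p i) := by
    refine nu_add_le ?_
    exact (aemeasurable_const (b := (0 : ℝ≥0∞))).congr hψ.symm
  rw [hsum, hψ0, zero_add]
  exact key2

/-- `a ∈ I_k`, `b ∈ I_l`, `(f, a, b)` finite, `m < k + l + 1` imply `jac(f, a, b) ∈ I_m`. -/
theorem inI_jac (hI : AreaI) (hII : AreaII) {k l m : ℝ} (hk : 0 < k) (hl : 0 < l)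
    (hm0 : 0 < m) (hm : m < k + l + 1) (hf : Hol f) (ha : InI f k a) (hb : InI f l b)
    (hfin : ∃ r > 0, ∃ C : ℕ, ∀ q : ℂ × ℂ, {x | x ∈ ball (0 : Fin 3 → ℂ) r ∧ f x = 0 ∧
      a x = q.1 ∧ b x = q.2}.encard ≤ C) : InI f m (jac3 f a b) :=
  inI_mono (inI_jac_aux hI hII hk hl (le_max_right m 1) (max_lt hm (by linarith)) hf ha hb hfin)
    hm0 (le_max_left _ _)

end main

end Vale.Agent.P298.H967
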