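import Vale.Agent.P298.H379.Geo

/-!
P298, row IRV-JAC (helper967): Hoelder inequality for the root-sum integrals.
-/

namespace Vale.Agent.P298.H967

open Filter Topology Metric MeasureTheory Set Vale.Agent.P298 Vale.Agent.P298.H379
open scoped ENNReal NNReal

/-- Hoelder inequality for sums in `[0, ∞]` -/
theorem tsum_prod_rpow_le {α ι : Type*} (s : Finset ι) (f : ι → α → ℝ≥0∞) {p : ι → ℝ}
    (hp : ∑ i ∈ s, p i = 1) (h2p : ∀ i ∈ s, 0 ≤ p i) :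
    ∑' a, ∏ i ∈ s, f i a ^ p i ≤ ∏ i ∈ s, (∑' a, f i a) ^ p i := by
  let _ : MeasurableSpace α := ⊤
  have := ENNReal.lintegral_prod_norm_pow_le (μ := Measure.count (α := α)) s (f := f)
    (fun i _ => (measurable_from_top).aemeasurable) hp h2p
  simpa [lintegral_count] using this

theorem prod_rpow_eq {ι : Type*} (s : Finset ι) (x : ℝ≥0∞) {p : ι → ℝ}
    (h2p : ∀ i ∈ s, 0 ≤ p i) : ∏ i ∈ s, x ^ p i = x ^ ∑ i ∈ s, p i := by
  classical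
  induction s using Finset.induction_on with
  | empty => simp
  | insert a t ha ih =>
    rw [Finset.prod_insert ha, Finset.sum_insert ha,
      ih fun i hi => h2p i (Finset.mem_insert_of_mem hi), ENNReal.rpow_add_of_nonneg]
    · exact h2p a (Finset.mem_insert_self a t)
    · exact Finset.sum_nonneg fun i hi => h2p i (Finset.mem_insert_of_mem hi)

theorem div_rpow_prod {ι : Type*} (s : Finset ι) (f : ι → ℝ≥0∞) {p : ι → ℝ} {D : ℝ≥0∞}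
    (hp : ∑ i ∈ s, p i = 1) (h2p : ∀ i ∈ s, 0 ≤ p i) :
    (∏ i ∈ s, f i ^ p i) / D = ∏ i ∈ s, (f i / D) ^ p i := by
  have h1 : ∏ i ∈ s, (f i / D) ^ p i = ∏ i ∈ s, (f i ^ p i * (D⁻¹) ^ p i) := by
    refine Finset.prod_congr rfl fun i hi => ?_
    rw [ENNReal.div_eq_inv_mul, ENNReal.mul_rpow_of_nonneg _ _ (h2p i hi), mul_comm]
  have h2 : ∏ i ∈ s, (D⁻¹) ^ p i = D⁻¹ := by
    rw [prod_rpow_eq s _ h2p, hp, ENNReal.rpow_one]
  rw [h1, Finset.prod_mul_distrib, h2, ENNReal.div_eq_inv_mul, mul_comm]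

/-- Hoelder inequality for root sums -/
theorem rootSum_prod_le {ι : Type*} (I : Finset ι) (f : (Fin 3 → ℂ) → ℂ) (s : ℂ)
    (φ : ι → (Fin 3 → ℂ) → ℝ≥0∞) {p : ι → ℝ} (hp : ∑ i ∈ I, p i = 1) (h2p : ∀ i ∈ I, 0 ≤ p i)
    (y : ℂ × ℂ) :
    rootSum f s (fun x => ∏ i ∈ I, φ i x ^ p i) y ≤ ∏ i ∈ I, (rootSum f s (φ i) y) ^ p i := by
  unfold rootSum
  refine le_trans (le_of_eq ?_) (tsum_prod_rpow_le I (fun i (z : Rts f s y) =>
    φ i (pt y z) / ‖pd 2 f (pt y z)‖ₑ ^ 2) hp h2p)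
  refine tsum_congr fun z => ?_
  exact div_rpow_prod I _ hp h2p

/-- Hoelder inequality for the root-sum integrals -/
theorem nu_prod_le {ι : Type*} (I : Finset ι) (f : (Fin 3 → ℂ) → ℂ) (s : ℂ)
    (φ : ι → (Fin 3 → ℂ) → ℝ≥0∞) {p : ι → ℝ} (hp : ∑ i ∈ I, p i = 1) (h2p : ∀ i ∈ I, 0 ≤ p i)
    (hm : ∀ i ∈ I, AEMeasurable (rootSum f s (φ i))) :
    nu f s (fun x => ∏ i ∈ I, φ i x ^ p i) ≤ ∏ i ∈ I, (nu f s (φ i)) ^ p i := by
  unfold nu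
  refine le_trans (lintegral_mono fun y => rootSum_prod_le I f s φ hp h2p y) ?_
  exact ENNReal.lintegral_prod_norm_pow_le I hm hp h2p

theorem rootSum_mono {f : (Fin 3 → ℂ) → ℂ} {s : ℂ} {φ ψ : (Fin 3 → ℂ) → ℝ≥0∞} {y : ℂ × ℂ}
    (h : ∀ x, f x = s → pd 2 f x ≠ 0 → φ x ≤ ψ x) : rootSum f s φ y ≤ rootSum f s ψ y := by
  unfold rootSum
  refine ENNReal.tsum_le_tsum fun z => ?_
  exact ENNReal.div_le_div_right (h _ z.2.1 z.2.2) _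

theorem nu_mono {f : (Fin 3 → ℂ) → ℂ} {s : ℂ} {φ ψ : (Fin 3 → ℂ) → ℝ≥0∞}
    (h : ∀ x, f x = s → pd 2 f x ≠ 0 → φ x ≤ ψ x) : nu f s φ ≤ nu f s ψ :=
  lintegral_mono fun _ => rootSum_mono h

theorem rootSum_congr {f : (Fin 3 → ℂ) → ℂ} {s : ℂ} {φ ψ : (Fin 3 → ℂ) → ℝ≥0∞} {y : ℂ × ℂ}
    (h : ∀ x, f x = s → pd 2 f x ≠ 0 → φ x = ψ x) : rootSum f s φ y = rootSum f s ψ y :=
  le_antisymm (rootSum_mono fun x h1 h2 => (h x h1 h2).le)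
    (rootSum_mono fun x h1 h2 => (h x h1 h2).ge)

theorem nu_congr {f : (Fin 3 → ℂ) → ℂ} {s : ℂ} {φ ψ : (Fin 3 → ℂ) → ℝ≥0∞}
    (h : ∀ x, f x = s → pd 2 f x ≠ 0 → φ x = ψ x) : nu f s φ = nu f s ψ :=
  lintegral_congr fun _ => rootSum_congr h

theorem rootSum_const_mul {f : (Fin 3 → ℂ) → ℂ} {s : ℂ} {φ : (Fin 3 → ℂ) → ℝ≥0∞} {y : ℂ × ℂ}
    (c : ℝ≥0∞) : rootSum f s (fun x => c * φ x) y = c * rootSum f s φ y := by
  unfold rootSum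
  rw [← ENNReal.tsum_mul_left]
  exact tsum_congr fun z => by rw [mul_div_assoc]

theorem nu_const_mul_le {f : (Fin 3 → ℂ) → ℂ} {s : ℂ} {φ : (Fin 3 → ℂ) → ℝ≥0∞}
    (c : ℝ≥0) : nu f s (fun x => c * φ x) = c * nu f s φ := by
  unfold nu
  simp only [rootSum_const_mul]
  rw [lintegral_const_mul' _ _ ENNReal.coe_ne_top]

theorem rootSum_add {f : (Fin 3 → ℂ) → ℂ} {s : ℂ} {φ ψ : (Fin 3 → ℂ) → ℝ≥0∞} {y : ℂ × ℂ} :
    rootSum f s (fun x => φ x + ψ x) y = rootSum f s φ y + rootSum f s ψ y := by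
  unfold rootSum
  rw [← ENNReal.tsum_add]
  exact tsum_congr fun z => by rw [ENNReal.add_div]

theorem nu_add_le {f : (Fin 3 → ℂ) → ℂ} {s : ℂ} {φ ψ : (Fin 3 → ℂ) → ℝ≥0∞}
    (hφ : AEMeasurable (rootSum f s φ)) :
    nu f s (fun x => φ x + ψ x) = nu f s φ + nu f s ψ := by
  unfold nu
  simp only [rootSum_add]
  rw [lintegral_add_left' hφ]

end Vale.Agent.P298.H967
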